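import Mathlib

/-!
P369 (helper461), package MIN: energy-bounded sets of states are compact in operator norm.
-/

set_option linter.unusedSectionVars false

namespace Vale.Agent.P369.H461

open scoped InnerProductSpace ENNReal Topology
open Filter Set

noncomputable section

variable {H : Type*} [NormedAddCommGroup H] [InnerProductSpace ℂ H] [CompleteSpace H]
  {ι : Type*}

/-- diagonal matrix element -/
def dg (e : ι → H) (k : ι) (ρ : H →L[ℂ] H) : ℝ := (⟪e k, ρ (e k)⟫_ℂ).re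

/-- states: positive operators of trace one, w.r.t. the orthonormal family `e` -/
def IsSt (e : ι → H) (ρ : H →L[ℂ] H) : Prop :=
  ρ.IsPositive ∧ HasSum (fun k => ⟪e k, ρ (e k)⟫_ℂ) 1

/-- energy with values in `[0, ∞]` -/
def enn (e : ι → H) (w : ι → ℝ) (ρ : H →L[ℂ] H) : ℝ≥0∞ := ∑' k, ENNReal.ofReal (w k * dg e k ρ)

theorem continuous_dg (e : ι → H) (k : ι) : Continuous (dg e k) := by
  unfold dg
  exact Complex.continuous_re.comp (continuous_const.inner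
    ((ContinuousLinearMap.apply ℂ H (e k)).continuous))

theorem dg_nonneg {e : ι → H} {ρ : H →L[ℂ] H} (h : ρ.IsPositive) (k : ι) : 0 ≤ dg e k ρ :=
  h.re_inner_nonneg_right (e k)

theorem inner_eq_dg {e : ι → H} {ρ : H →L[ℂ] H} (h : ρ.IsPositive) (k : ι) :
    ⟪e k, ρ (e k)⟫_ℂ = (dg e k ρ : ℂ) := by
  apply Complex.ext
  · simp [dg]
  · have := h.inner_nonneg_right (e k)
    rw [Complex.nonneg_iff] at this
    simp [← this.2]

theorem IsSt.hasSum {e : ι → H} {ρ : H →L[ℂ] H} (h : IsSt e ρ) : HasSum (fun k => dg e k ρ) 1 := by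
  have := h.2
  have h2 : HasSum (fun k => (⟪e k, ρ (e k)⟫_ℂ).re) (1 : ℂ).re := Complex.hasSum_re this
  simpa [dg] using h2

theorem isSt_iff {e : ι → H} {ρ : H →L[ℂ] H} :
    IsSt e ρ ↔ ρ.IsPositive ∧ HasSum (fun k => dg e k ρ) 1 := by
  constructor
  · intro h
    exact ⟨h.1, h.hasSum⟩
  · rintro ⟨h1, h2⟩
    refine ⟨h1, ?_⟩
    have h3 : HasSum (fun k => ((dg e k ρ : ℝ) : ℂ)) ((1 : ℝ) : ℂ) := by
      exact_mod_cast h2
    simpa [inner_eq_dg h1] using h3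

/-- the finite dimensional projection -/
def pr (e : ι → H) (s : Finset ι) : H →L[ℂ] H := ∑ k ∈ s, (innerSL ℂ (e k)).smulRight (e k)

theorem pr_apply (e : ι → H) (s : Finset ι) (v : H) : pr e s v = ∑ k ∈ s, ⟪e k, v⟫_ℂ • e k := by
  simp [pr]

theorem norm_sum_sq {e : ι → H} (he : Orthonormal ℂ e) (s : Finset ι) (c : ι → ℂ) :
    ‖∑ k ∈ s, c k • e k‖ ^ 2 = ∑ k ∈ s, ‖c k‖ ^ 2 := by
  have h1 := he.inner_sum c c s
  rw [← @inner_self_eq_norm_sq ℂ]
  rw [h1, map_sum]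
  refine Finset.sum_congr rfl fun k _ => ?_
  rw [RCLike.conj_mul]
  norm_cast

theorem norm_pr_le {e : ι → H} (he : Orthonormal ℂ e) (s : Finset ι) (v : H) :
    ‖pr e s v‖ ≤ ‖v‖ := by
  rw [pr_apply]
  have h2 := he.sum_inner_products_le (x := v) (s := s)
  have h3 : ‖∑ k ∈ s, ⟪e k, v⟫_ℂ • e k‖ ^ 2 ≤ ‖v‖ ^ 2 := (norm_sum_sq he s _).trans_le h2
  exact le_of_sq_le_sq h3 (norm_nonneg _)

theorem inner_pr_left (e : ι → H) (s : Finset ι) (u v : H) :
    ⟪pr e s u, v⟫_ℂ = ⟪u, pr e s v⟫_ℂ := by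
  simp only [pr_apply, sum_inner, inner_sum, inner_smul_left, inner_smul_right, inner_conj_symm]
  exact Finset.sum_congr rfl fun k _ => by ring

theorem tendsto_pr {e : ι → H} (he : Orthonormal ℂ e)
    (hd : Dense (Submodule.span ℂ (range e) : Set H)) (v : H) :
    Tendsto (fun s : Finset ι => pr e s v) atTop (𝓝 v) := by
  have hsp : ⊤ ≤ (Submodule.span ℂ (range e)).topologicalClosure := by
    rw [(Submodule.dense_iff_topologicalClosure_eq_top).1 hd]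
  have h := (HilbertBasis.mk he hsp).hasSum_repr v
  have h2 : ∀ k, (HilbertBasis.mk he hsp).repr v k • (HilbertBasis.mk he hsp) k =
      ⟪e k, v⟫_ℂ • e k := by
    intro k
    rw [HilbertBasis.repr_apply_apply, HilbertBasis.coe_mk]
  simp only [h2] at h
  have h3 : (fun s : Finset ι => pr e s v) = fun s => ∑ k ∈ s, ⟪e k, v⟫_ℂ • e k := by
    funext s; exact pr_apply e s v
  rw [h3]
  exact h

/-- the tail estimate -/
theorem norm_tail_le {e : ι → H} (he : Orthonormal ℂ e)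
    (hd : Dense (Submodule.span ℂ (range e) : Set H)) (S : H →L[ℂ] H) {t : ℝ} {s : Finset ι}
    (ht : ∀ F : Finset ι, Disjoint s F → ∑ k ∈ F, ‖S (e k)‖ ^ 2 ≤ t) (v : H) :
    ‖S (v - pr e s v)‖ ≤ √t * ‖v‖ := by
  classical
  have h1 : Tendsto (fun F : Finset ι => ‖S (pr e F v - pr e s v)‖) atTop
      (𝓝 ‖S (v - pr e s v)‖) :=
    ((S.continuous.tendsto _).comp ((tendsto_pr he hd v).sub tendsto_const_nhds)).norm
  refine le_of_tendsto h1 ?_
  filter_upwards [eventually_ge_atTop s] with F hF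
  have h2 : pr e F v - pr e s v = ∑ k ∈ F \ s, ⟪e k, v⟫_ℂ • e k := by
    rw [pr_apply, pr_apply, ← Finset.sum_sdiff hF]
    abel
  rw [h2, map_sum]
  calc ‖∑ k ∈ F \ s, S (⟪e k, v⟫_ℂ • e k)‖ ≤ ∑ k ∈ F \ s, ‖S (⟪e k, v⟫_ℂ • e k)‖ := norm_sum_le _ _
    _ = ∑ k ∈ F \ s, ‖S (e k)‖ * ‖⟪e k, v⟫_ℂ‖ := by
        refine Finset.sum_congr rfl fun k _ => ?_
        rw [map_smul, norm_smul, mul_comm]
    _ ≤ √(∑ k ∈ F \ s, ‖S (e k)‖ ^ 2) * √(∑ k ∈ F \ s, ‖⟪e k, v⟫_ℂ‖ ^ 2) :=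
        Real.sum_mul_le_sqrt_mul_sqrt _ _ _
    _ ≤ √t * ‖v‖ := by
        gcongr
        · exact ht _ (Finset.disjoint_sdiff)
        · calc √(∑ k ∈ F \ s, ‖⟪e k, v⟫_ℂ‖ ^ 2) ≤ √(‖v‖ ^ 2) :=
                Real.sqrt_le_sqrt (he.sum_inner_products_le v)
            _ = ‖v‖ := Real.sqrt_sq (norm_nonneg _)

/-- compression to a finite set of basis vectors, as a function of the matrix -/
def comp (e : ι → H) (s : Finset ι) (M : s → s → ℂ) : H →L[ℂ] H :=
  ∑ k : s, ∑ l : s, M k l • (innerSL ℂ (e l)).smulRight (e k)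

theorem continuous_comp (e : ι → H) (s : Finset ι) : Continuous (comp e s) := by
  unfold comp
  fun_prop

theorem comp_eq (e : ι → H) (s : Finset ι) (ρ : H →L[ℂ] H) (v : H) :
    comp e s (fun k l => ⟪e k, ρ (e l)⟫_ℂ) v = pr e s (ρ (pr e s v)) := by
  have h1 : comp e s (fun k l => ⟪e k, ρ (e l)⟫_ℂ) v =
      ∑ k : s, ∑ l : s, ⟪e k, ρ (e l)⟫_ℂ • ⟪e l, v⟫_ℂ • e k := by
    simp [comp]
  have h2 : pr e s (ρ (pr e s v)) =
      ∑ k : s, ∑ l : s, ⟪e k, ρ (e l)⟫_ℂ • ⟪e l, v⟫_ℂ • e k := by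
    rw [pr_apply e s v, map_sum, pr_apply, ← Finset.sum_coe_sort s]
    refine Finset.sum_congr rfl fun k _ => ?_
    rw [inner_sum, Finset.sum_smul, ← Finset.sum_coe_sort s]
    refine Finset.sum_congr rfl fun l _ => ?_
    rw [map_smul, inner_smul_right, smul_smul, mul_comm]
  rw [h1, h2]

theorem exists_sqrt {ρ : H →L[ℂ] H} (h : ρ.IsPositive) :
    ∃ S : H →L[ℂ] H, ∀ u v : H, ⟪u, ρ v⟫_ℂ = ⟪S u, S v⟫_ℂ := by
  have h0 : 0 ≤ ρ := (ContinuousLinearMap.nonneg_iff_isPositive ρ).2 h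
  obtain ⟨S, hS⟩ := CStarAlgebra.nonneg_iff_eq_star_mul_self.1 h0
  refine ⟨S, fun u v => ?_⟩
  rw [hS, ContinuousLinearMap.star_eq_adjoint, mul_apply_eq_comp,
    ContinuousLinearMap.adjoint_inner_right]

/-- approximation by compressions -/
theorem norm_sub_comp_le {e : ι → H} (he : Orthonormal ℂ e)
    (hd : Dense (Submodule.span ℂ (range e) : Set H)) {ρ : H →L[ℂ] H} (hρ : ρ.IsPositive)
    {t : ℝ} {s : Finset ι} (ht0 : ∀ F : Finset ι, ∑ k ∈ F, dg e k ρ ≤ 1)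
    (ht : ∀ F : Finset ι, Disjoint s F → ∑ k ∈ F, dg e k ρ ≤ t) :
    ‖ρ - comp e s (fun k l => ⟪e k, ρ (e l)⟫_ℂ)‖ ≤ 2 * √t := by
  obtain ⟨S, hS⟩ := exists_sqrt hρ
  have hdg : ∀ k, ‖S (e k)‖ ^ 2 = dg e k ρ := by
    intro k
    rw [dg, hS, ← @inner_self_eq_norm_sq ℂ]
    rfl
  have hS1 : ∀ v, ‖S v‖ ≤ ‖v‖ := by
    intro v
    have := norm_tail_le he hd S (t := 1) (s := ∅) (fun F _ => by
      simpa [hdg] using ht0 F) v
    simpa [pr_apply] using this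
  have hS2 : ∀ v, ‖S (v - pr e s v)‖ ≤ √t * ‖v‖ := fun v =>
    norm_tail_le he hd S (fun F hF => by simpa [hdg] using ht F hF) v
  refine ContinuousLinearMap.opNorm_le_bound _ (by positivity) fun v => ?_
  set T := ρ - comp e s (fun k l => ⟪e k, ρ (e l)⟫_ℂ) with hT
  have key : ∀ u, ‖⟪u, T v⟫_ℂ‖ ≤ 2 * √t * ‖v‖ * ‖u‖ := by
    intro u
    have h1 : ⟪u, T v⟫_ℂ = ⟪S u, S (v - pr e s v)⟫_ℂ + ⟪S (u - pr e s u), S (pr e s v)⟫_ℂ := by
      rw [hT, sub_apply, comp_eq, inner_sub_right, ← inner_pr_left,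
        ← hS, ← hS, map_sub, inner_sub_right, inner_sub_left]
      abel
    rw [h1]
    calc ‖⟪S u, S (v - pr e s v)⟫_ℂ + ⟪S (u - pr e s u), S (pr e s v)⟫_ℂ‖
        ≤ ‖S u‖ * ‖S (v - pr e s v)‖ + ‖S (u - pr e s u)‖ * ‖S (pr e s v)‖ :=
          (norm_add_le _ _).trans (add_le_add (norm_inner_le_norm _ _) (norm_inner_le_norm _ _))
      _ ≤ ‖u‖ * (√t * ‖v‖) + (√t * ‖u‖) * ‖v‖ := by
          gcongr
          · exact hS1 u
          · exact hS2 v
          · exact hS2 u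
          · exact (hS1 _).trans (norm_pr_le he s v)
      _ = 2 * √t * ‖v‖ * ‖u‖ := by ring
  by_cases hv : T v = 0
  · rw [hv, norm_zero]; positivity
  have h2 := key (T v)
  rw [inner_self_eq_norm_sq_to_K, norm_pow, RCLike.norm_ofReal, abs_norm, sq] at h2
  exact le_of_mul_le_mul_right h2 (norm_pos_iff.2 hv)

/-- the energy-bounded states -/
def KE (e : ι → H) (w : ι → ℝ) (E : ℝ) : Set (H →L[ℂ] H) :=
  {ρ | IsSt e ρ ∧ ∀ F : Finset ι, ∑ k ∈ F, w k * dg e k ρ ≤ E}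

/-- the energy-bounded states are given by closed conditions -/
theorem KE_eq {e : ι → H} {w : ι → ℝ} (hw : ∀ k, 0 ≤ w k) (hf : ∀ N : ℝ, {k | w k ≤ N}.Finite)
    {E : ℝ} :
    KE e w E = {ρ | 0 ≤ ρ} ∩ (⋂ F : Finset ι, {ρ | ∑ k ∈ F, dg e k ρ ≤ 1}) ∩
      (⋂ F : Finset ι, {ρ | ∑ k ∈ F, w k * dg e k ρ ≤ E}) ∩
      (⋂ N : ℕ, {ρ | 1 - E / (N + 1) ≤ ∑ k ∈ (hf (N + 1)).toFinset, dg e k ρ}) := by
  ext ρ
  simp only [KE, mem_setOf_eq, mem_inter_iff, mem_iInter]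
  constructor
  · rintro ⟨h1, h2⟩
    have hs := h1.hasSum
    have hn : ∀ k, 0 ≤ dg e k ρ := dg_nonneg h1.1
    refine ⟨⟨⟨(ContinuousLinearMap.nonneg_iff_isPositive ρ).2 h1.1, fun F =>
      sum_le_hasSum F (fun k _ => hn k) hs⟩, h2⟩, fun N => ?_⟩
    -- tail estimate
    have h3 : ∀ F : Finset ι, ∑ k ∈ F, dg e k ρ ≤
        ∑ k ∈ (hf (N + 1)).toFinset, dg e k ρ + E / (N + 1) := by
      intro F
      classical
      have hN : (0 : ℝ) < N + 1 := by positivity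
      have h4 : ∑ k ∈ F \ (hf (N + 1)).toFinset, dg e k ρ ≤ E / (N + 1) := by
        rw [le_div_iff₀ hN, Finset.sum_mul]
        refine le_trans (Finset.sum_le_sum fun k hk => ?_) (h2 (F \ (hf (N + 1)).toFinset))
        rw [Finset.mem_sdiff, Set.Finite.mem_toFinset, mem_setOf_eq, not_le] at hk
        rw [mul_comm]
        exact mul_le_mul_of_nonneg_right hk.2.le (hn k)
      calc ∑ k ∈ F, dg e k ρ ≤ ∑ k ∈ (hf (N + 1)).toFinset ∪ F, dg e k ρ :=
            Finset.sum_le_sum_of_subset_of_nonneg Finset.subset_union_right fun k _ _ => hn k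
        _ = ∑ k ∈ (hf (N + 1)).toFinset, dg e k ρ +
              ∑ k ∈ F \ (hf (N + 1)).toFinset, dg e k ρ := by
            rw [← Finset.sum_union Finset.disjoint_sdiff, Finset.union_sdiff_self_eq_union]
        _ ≤ _ := by linarith
    have h5 := hs.tsum_eq ▸ (hs.summable.tsum_le_of_sum_le h3)
    linarith
  · rintro ⟨⟨⟨h1, h2⟩, h3⟩, h4⟩
    have hp : ρ.IsPositive := (ContinuousLinearMap.nonneg_iff_isPositive ρ).1 h1
    have hn : ∀ k, 0 ≤ dg e k ρ := dg_nonneg hp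
    refine ⟨isSt_iff.2 ⟨hp, ?_⟩, h3⟩
    have hsum : Summable fun k => dg e k ρ := summable_of_sum_le hn h2
    have h5 : ∑' k, dg e k ρ ≤ 1 := hsum.tsum_le_of_sum_le h2
    have h6 : 1 ≤ ∑' k, dg e k ρ := by
      have h7 : ∀ N : ℕ, 1 - E / (N + 1) ≤ ∑' k, dg e k ρ := fun N =>
        (h4 N).trans (hsum.sum_le_tsum _ fun k _ => hn k)
      have h8 : Tendsto (fun N : ℕ => 1 - E / ((N : ℝ) + 1)) atTop (𝓝 (1 - 0)) := by
        refine tendsto_const_nhds.sub ?_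
        exact tendsto_const_nhds.div_atTop
          (tendsto_atTop_add_const_right _ _ tendsto_natCast_atTop_atTop)
      rw [sub_zero] at h8
      exact le_of_tendsto' h8 h7
    rw [← le_antisymm h5 h6]
    exact hsum.hasSum

theorem isClosed_KE {e : ι → H} {w : ι → ℝ} (hw : ∀ k, 0 ≤ w k)
    (hf : ∀ N : ℝ, {k | w k ≤ N}.Finite) {E : ℝ} : IsClosed (KE e w E) := by
  rw [KE_eq hw hf]
  refine ((CStarAlgebra.isClosed_nonneg.inter (isClosed_iInter fun F => ?_)).inter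
    (isClosed_iInter fun F => ?_)).inter (isClosed_iInter fun N => ?_)
  · exact isClosed_le (continuous_finset_sum _ fun k _ => continuous_dg e k) continuous_const
  · exact isClosed_le (continuous_finset_sum _ fun k _ =>
      continuous_const.mul (continuous_dg e k)) continuous_const
  · exact isClosed_le continuous_const (continuous_finset_sum _ fun k _ => continuous_dg e k)

/-- tail bound of the trace -/
theorem KE.tail {e : ι → H} {w : ι → ℝ} (hf : ∀ N : ℝ, {k | w k ≤ N}.Finite)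
    {E : ℝ} {ρ : H →L[ℂ] H} (h : ρ ∈ KE e w E) (N : ℕ) (F : Finset ι)
    (hF : Disjoint (hf (N + 1)).toFinset F) : ∑ k ∈ F, dg e k ρ ≤ E / (N + 1) := by
  have hN : (0 : ℝ) < N + 1 := by positivity
  rw [le_div_iff₀ hN, Finset.sum_mul]
  refine le_trans (Finset.sum_le_sum fun k hk => ?_) (h.2 F)
  have hk2 : k ∉ (hf (N + 1)).toFinset := fun h' => (Finset.disjoint_left.1 hF h') hk
  rw [Set.Finite.mem_toFinset, mem_setOf_eq, not_le] at hk2
  rw [mul_comm]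
  exact mul_le_mul_of_nonneg_right hk2.le (dg_nonneg h.1.1 k)

theorem KE.norm_sub_comp_le {e : ι → H} (he : Orthonormal ℂ e)
    (hd : Dense (Submodule.span ℂ (range e) : Set H)) {w : ι → ℝ}
    (hf : ∀ N : ℝ, {k | w k ≤ N}.Finite) {E : ℝ} {ρ : H →L[ℂ] H} (h : ρ ∈ KE e w E) (N : ℕ) :
    ‖ρ - comp e (hf (N + 1)).toFinset (fun k l => ⟪e k, ρ (e l)⟫_ℂ)‖ ≤ 2 * √(E / (N + 1)) :=
  H461.norm_sub_comp_le he hd h.1.1
    (fun F => sum_le_hasSum F (fun k _ => dg_nonneg h.1.1 k) h.1.hasSum) (KE.tail hf h N)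

theorem norm_inner_le_one {e : ι → H} (he : Orthonormal ℂ e)
    (hd : Dense (Submodule.span ℂ (range e) : Set H)) {ρ : H →L[ℂ] H} (h : IsSt e ρ) (u v : H) :
    ‖⟪u, ρ v⟫_ℂ‖ ≤ ‖u‖ * ‖v‖ := by
  obtain ⟨S, hS⟩ := exists_sqrt h.1
  have hdg : ∀ k, ‖S (e k)‖ ^ 2 = dg e k ρ := by
    intro k
    rw [dg, hS, ← @inner_self_eq_norm_sq ℂ]
    rfl
  have hS1 : ∀ v, ‖S v‖ ≤ ‖v‖ := by
    intro v
    have := norm_tail_le he hd S (t := 1) (s := ∅) (fun F _ => by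
      simpa [hdg] using sum_le_hasSum F (fun k _ => dg_nonneg h.1 k) h.hasSum) v
    simpa [pr_apply] using this
  rw [hS]
  exact (norm_inner_le_norm _ _).trans (mul_le_mul (hS1 u) (hS1 v) (norm_nonneg _) (norm_nonneg _))

theorem norm_le_one {e : ι → H} (he : Orthonormal ℂ e)
    (hd : Dense (Submodule.span ℂ (range e) : Set H)) {ρ : H →L[ℂ] H} (h : IsSt e ρ) :
    ‖ρ‖ ≤ 1 := by
  refine ContinuousLinearMap.opNorm_le_bound _ zero_le_one fun v => ?_
  by_cases hv : ρ v = 0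
  · rw [hv, norm_zero]; positivity
  have h2 := norm_inner_le_one he hd h (ρ v) v
  rw [inner_self_eq_norm_sq_to_K, norm_pow, RCLike.norm_ofReal, abs_norm, sq] at h2
  rw [one_mul]
  exact le_of_mul_le_mul_left h2 (norm_pos_iff.2 hv)

/-- energy-bounded sets of states are compact in operator norm -/
theorem isCompact_KE {e : ι → H} (he : Orthonormal ℂ e)
    (hd : Dense (Submodule.span ℂ (range e) : Set H)) {w : ι → ℝ} (hw : ∀ k, 0 ≤ w k)
    (hf : ∀ N : ℝ, {k | w k ≤ N}.Finite) (E : ℝ) : IsCompact (KE e w E) := by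
  rw [isCompact_iff_totallyBounded_isComplete]
  refine ⟨?_, (isClosed_KE hw hf).isComplete⟩
  rw [Metric.totallyBounded_iff]
  intro ε hε
  have hlim : Tendsto (fun N : ℕ => 2 * √(E / ((N : ℝ) + 1))) atTop (𝓝 (2 * √0)) := by
    refine tendsto_const_nhds.mul ((Real.continuous_sqrt.tendsto 0).comp ?_)
    exact tendsto_const_nhds.div_atTop
      (tendsto_atTop_add_const_right _ _ tendsto_natCast_atTop_atTop)
  rw [Real.sqrt_zero, mul_zero] at hlim
  obtain ⟨N, hN⟩ := (hlim.eventually (gt_mem_nhds (half_pos hε))).exists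
  set s := (hf (N + 1)).toFinset with hs
  have hcpt : IsCompact (comp e s '' (Set.univ.pi fun _ => Set.univ.pi fun _ =>
      Metric.closedBall (0 : ℂ) 1)) := by
    refine IsCompact.image ?_ (continuous_comp e s)
    exact isCompact_univ_pi fun _ => isCompact_univ_pi fun _ => isCompact_closedBall _ _
  obtain ⟨t, ht, htc⟩ := Metric.totallyBounded_iff.1 hcpt.totallyBounded (ε / 2) (half_pos hε)
  refine ⟨t, ht, fun ρ hρ => ?_⟩
  have h1 := (KE.norm_sub_comp_le he hd hf hρ N).trans_lt hN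
  have h2 : comp e s (fun k l => ⟪e k, ρ (e l)⟫_ℂ) ∈ comp e s ''
      (Set.univ.pi fun _ => Set.univ.pi fun _ => Metric.closedBall (0 : ℂ) 1) := by
    refine ⟨_, ?_, rfl⟩
    simp only [Set.mem_pi, Set.mem_univ, true_implies, Metric.mem_closedBall, dist_zero_right]
    intro k l
    have := norm_inner_le_one he hd hρ.1 (e k) (e l)
    rwa [he.1, he.1, one_mul] at this
  obtain ⟨y, hy, hy2⟩ := mem_iUnion₂.1 (htc h2)
  refine mem_iUnion₂.2 ⟨y, hy, ?_⟩
  rw [Metric.mem_ball] at hy2 ⊢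
  calc dist ρ y ≤ dist ρ (comp e s fun k l => ⟪e k, ρ (e l)⟫_ℂ) +
        dist (comp e s fun k l => ⟪e k, ρ (e l)⟫_ℂ) y := dist_triangle _ _ _
    _ < ε / 2 + ε / 2 := by
        refine add_lt_add ?_ hy2
        rw [dist_eq_norm]
        exact h1
    _ = ε := add_halves ε

end

end Vale.Agent.P369.H461
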