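import Vale.Agent.P369.H461.Compact

/-!
P369 (helper461), package MIN: lower semicontinuity of entropy and of relative entropy.
-/

set_option linter.unusedSectionVars false

namespace Vale.Agent.P369.H461

open scoped InnerProductSpace ENNReal Topology
open Filter Set

noncomputable section

variable {H : Type*} [NormedAddCommGroup H] [InnerProductSpace ℂ H] [CompleteSpace H]
  {ι : Type*}

/-- the states -/
def States (e : ι → H) : Set (H →L[ℂ] H) := {ρ | IsSt e ρ}

theorem spectrum_subset {e : ι → H} (he : Orthonormal ℂ e)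
    (hd : Dense (Submodule.span ℂ (range e) : Set H)) {ρ : H →L[ℂ] H} (h : IsSt e ρ) :
    spectrum ℝ ρ ⊆ Icc 0 1 := by
  intro x hx
  have h0 : 0 ≤ ρ := (ContinuousLinearMap.nonneg_iff_isPositive ρ).2 h.1
  have h1 : 0 ≤ x := spectrum_nonneg_of_nonneg h0 hx
  refine ⟨h1, ?_⟩
  have h2 : ‖x‖ ≤ ‖ρ‖ := by
    by_cases hH : Nontrivial H
    · exact spectrum.norm_le_norm_of_mem hx
    · exfalso
      rw [not_nontrivial_iff_subsingleton] at hH
      have : ρ = 0 := by ext v; exact Subsingleton.elim _ _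
      have h3 := h.hasSum
      have h4 : (fun k => dg e k ρ) = fun _ => 0 := by
        funext k; simp [dg, this]
      rw [h4] at h3
      exact zero_ne_one (hasSum_zero.unique h3)
  calc x ≤ ‖x‖ := le_abs_self x
    _ ≤ ‖ρ‖ := h2
    _ ≤ 1 := norm_le_one he hd h

theorem IsSt.isSelfAdjoint {e : ι → H} {ρ : H →L[ℂ] H} (h : IsSt e ρ) : IsSelfAdjoint ρ :=
  h.1.isSelfAdjoint

/-- diagonal elements of `-ρ log ρ` -/
def sg (e : ι → H) (k : ι) (ρ : H →L[ℂ] H) : ℝ := dg e k (cfc Real.negMulLog ρ)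

theorem continuousOn_sg {e : ι → H} (he : Orthonormal ℂ e)
    (hd : Dense (Submodule.span ℂ (range e) : Set H)) (k : ι) :
    ContinuousOn (sg e k) (States e) := by
  have h1 : ContinuousOn (cfc (R := ℝ) (A := H →L[ℂ] H) (p := IsSelfAdjoint) Real.negMulLog)
      {a | IsSelfAdjoint a ∧ spectrum ℝ a ⊆ Icc 0 1} :=
    continuousOn_cfc (H →L[ℂ] H) isCompact_Icc Real.negMulLog
      Real.continuous_negMulLog.continuousOn
  have h2 : States e ⊆ {a | IsSelfAdjoint a ∧ spectrum ℝ a ⊆ Icc 0 1} := fun ρ hρ =>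
    ⟨hρ.isSelfAdjoint, spectrum_subset he hd hρ⟩
  exact (continuous_dg e k).comp_continuousOn (h1.mono h2)

theorem cfc_negMulLog_nonneg {e : ι → H} (he : Orthonormal ℂ e)
    (hd : Dense (Submodule.span ℂ (range e) : Set H)) {ρ : H →L[ℂ] H} (h : IsSt e ρ) :
    0 ≤ cfc Real.negMulLog ρ := by
  refine cfc_nonneg fun x hx => ?_
  have := spectrum_subset he hd h hx
  exact Real.negMulLog_nonneg this.1 this.2

theorem sg_nonneg {e : ι → H} (he : Orthonormal ℂ e)
    (hd : Dense (Submodule.span ℂ (range e) : Set H)) {ρ : H →L[ℂ] H} (h : IsSt e ρ) (k : ι) :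
    0 ≤ sg e k ρ :=
  dg_nonneg ((ContinuousLinearMap.nonneg_iff_isPositive _).1 (cfc_negMulLog_nonneg he hd h)) k

/-- terms of the relative entropy with respect to a diagonal operator with entries `t` -/
def rt (e : ι → H) (t : ℝ) (k : ι) (ρ : H →L[ℂ] H) : ℝ :=
  -sg e k ρ - (Real.log t + 1) * dg e k ρ + t

theorem hh_nonneg {t x : ℝ} (ht : 0 < t) (hx : 0 ≤ x) :
    0 ≤ -Real.negMulLog x - (Real.log t + 1) * x + t := by
  rcases hx.eq_or_lt with rfl | hx
  · simpa using ht.le
  · have h1 : Real.log (t / x) ≤ t / x - 1 := Real.log_le_sub_one_of_pos (by positivity)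
    rw [Real.log_div ht.ne' hx.ne'] at h1
    have h2 : (Real.log t - Real.log x) * x ≤ (t / x - 1) * x :=
      mul_le_mul_of_nonneg_right h1 hx.le
    have h3 : (t / x - 1) * x = t - x := by field_simp
    rw [Real.negMulLog]
    nlinarith

theorem dg_cfc_lin (e : ι → H) (he : Orthonormal ℂ e) {ρ : H →L[ℂ] H} (h : IsSelfAdjoint ρ)
    (c t : ℝ) (k : ι) :
    dg e k (cfc (fun x => -Real.negMulLog x - c * x + t) ρ) = -sg e k ρ - c * dg e k ρ + t := by
  have hc : Continuous fun x => -Real.negMulLog x - c * x :=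
    (Real.continuous_negMulLog.neg).sub (continuous_const.mul continuous_id)
  have hc2 : Continuous fun x => -Real.negMulLog x := Real.continuous_negMulLog.neg
  have h1 : cfc (fun x => -Real.negMulLog x - c * x + t) ρ =
      -cfc Real.negMulLog ρ - c • ρ + algebraMap ℝ (H →L[ℂ] H) t := by
    rw [cfc_add_const t _ ρ hc.continuousOn h,
      cfc_sub (R := ℝ) (fun x => -Real.negMulLog x) (fun x => c * x) ρ hc2.continuousOn
        (continuous_const.mul continuous_id).continuousOn,
      cfc_neg, cfc_const_mul_id c ρ h]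
  rw [h1]
  have h2 : (algebraMap ℝ (H →L[ℂ] H) t) (e k) = (t : ℂ) • e k := by
    rw [Algebra.algebraMap_eq_smul_one]
    simp
  have h3 : ⟪e k, e k⟫_ℂ = 1 := by
    rw [inner_self_eq_norm_sq_to_K, he.1 k]; norm_num
  simp only [dg, sg, add_apply, sub_apply, neg_apply, smul_apply, inner_add_right,
    inner_sub_right, inner_neg_right, h2, inner_smul_right, h3]
  have h4 : ⟪e k, c • ρ (e k)⟫_ℂ = (c : ℂ) * ⟪e k, ρ (e k)⟫_ℂ := by
    rw [← Complex.coe_smul c (ρ (e k)), inner_smul_right]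
  rw [h4]
  simp

theorem rt_nonneg {e : ι → H} (he : Orthonormal ℂ e) {ρ : H →L[ℂ] H} (h : ρ.IsPositive) {t : ℝ}
    (ht : 0 < t) (k : ι) : 0 ≤ rt e t k ρ := by
  rw [rt, ← dg_cfc_lin e he h.isSelfAdjoint]
  have h0 : 0 ≤ ρ := (ContinuousLinearMap.nonneg_iff_isPositive ρ).2 h
  refine dg_nonneg ((ContinuousLinearMap.nonneg_iff_isPositive _).1 ?_) k
  refine cfc_nonneg fun x hx => ?_
  exact hh_nonneg ht (spectrum_nonneg_of_nonneg h0 hx)

theorem continuousOn_rt {e : ι → H} (he : Orthonormal ℂ e)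
    (hd : Dense (Submodule.span ℂ (range e) : Set H)) (t : ℝ) (k : ι) :
    ContinuousOn (rt e t k) (States e) := by
  unfold rt
  exact (((continuousOn_sg he hd k).neg).sub
    (continuousOn_const.mul (continuous_dg e k).continuousOn)).add continuousOn_const

/-- the entropy, with values in `[0, ∞]` -/
def sE (e : ι → H) (ρ : H →L[ℂ] H) : ℝ≥0∞ := ∑' k, ENNReal.ofReal (sg e k ρ)

/-- the relative entropy to the diagonal operator with entries `t`, with values in `[0, ∞]` -/
def rE (e : ι → H) (t : ι → ℝ) (ρ : H →L[ℂ] H) : ℝ≥0∞ := ∑' k, ENNReal.ofReal (rt e (t k) k ρ)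

theorem lsc_sE {e : ι → H} (he : Orthonormal ℂ e)
    (hd : Dense (Submodule.span ℂ (range e) : Set H)) : LowerSemicontinuousOn (sE e) (States e) :=
  lowerSemicontinuousOn_tsum fun k =>
    (ENNReal.continuous_ofReal.comp_continuousOn (continuousOn_sg he hd k)).lowerSemicontinuousOn

theorem lsc_rE {e : ι → H} (he : Orthonormal ℂ e)
    (hd : Dense (Submodule.span ℂ (range e) : Set H)) (t : ι → ℝ) :
    LowerSemicontinuousOn (rE e t) (States e) :=
  lowerSemicontinuousOn_tsum fun k =>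
    (ENNReal.continuous_ofReal.comp_continuousOn (continuousOn_rt he hd (t k) k)).lowerSemicontinuousOn

end

end Vale.Agent.P369.H461
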