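import Vale.Agent.P369.H461.Lsc

/-!
P369 (helper461), package MIN: existence of the minimiser.
-/

set_option linter.unusedSectionVars false

namespace Vale.Agent.P369.H461

open scoped InnerProductSpace ENNReal Topology
open Filter Set

noncomputable section

variable {H : Type*} [NormedAddCommGroup H] [InnerProductSpace ℂ H] [CompleteSpace H]
  {ι : Type*}

/-- states of finite energy -/
def FE (e : ι → H) (w : ι → ℝ) (ρ : H →L[ℂ] H) : Prop :=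
  IsSt e ρ ∧ Summable (fun k => w k * dg e k ρ)

/-- energy -/
def en (e : ι → H) (w : ι → ℝ) (ρ : H →L[ℂ] H) : ℝ := ∑' k, w k * dg e k ρ

/-- entropy -/
def ent (e : ι → H) (ρ : H →L[ℂ] H) : ℝ := ∑' k, sg e k ρ

/-- the partition function -/
def Z (w : ι → ℝ) (β : ℝ) : ℝ := ∑' k, Real.exp (-(β * w k))

/-- thermal weights -/
def th (w : ι → ℝ) (β : ℝ) (k : ι) : ℝ := Real.exp (-(β * w k)) / Z w β

theorem Z_pos [Nonempty ι] {w : ι → ℝ} {β : ℝ} (h : Summable fun k => Real.exp (-(β * w k))) :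
    0 < Z w β :=
  h.tsum_pos (fun k => (Real.exp_pos _).le) (Classical.arbitrary ι) (Real.exp_pos _)

theorem th_pos [Nonempty ι] {w : ι → ℝ} {β : ℝ} (h : Summable fun k => Real.exp (-(β * w k)))
    (k : ι) : 0 < th w β k := div_pos (Real.exp_pos _) (Z_pos h)

theorem hasSum_th [Nonempty ι] {w : ι → ℝ} {β : ℝ}
    (h : Summable fun k => Real.exp (-(β * w k))) : HasSum (th w β) 1 := by
  have := h.hasSum.div_const (Z w β)
  rwa [← Z, div_self (Z_pos h).ne'] at this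

theorem log_th [Nonempty ι] {w : ι → ℝ} {β : ℝ} (h : Summable fun k => Real.exp (-(β * w k)))
    (k : ι) : Real.log (th w β k) = -(β * w k) - Real.log (Z w β) := by
  rw [th, Real.log_div (Real.exp_pos _).ne' (Z_pos h).ne', Real.log_exp]

theorem sum_dg_le_one {e : ι → H} {ρ : H →L[ℂ] H} (h : IsSt e ρ) (F : Finset ι) :
    ∑ k ∈ F, dg e k ρ ≤ 1 := sum_le_hasSum F (fun k _ => dg_nonneg h.1 k) h.hasSum

/-- coercivity of the relative entropy -/
theorem mem_KE_of_rE_le [Nonempty ι] {e : ι → H} (he : Orthonormal ℂ e) {w : ι → ℝ}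
    {β : ℝ} (hβ : 0 < β) (hZ : ∀ β : ℝ, 0 < β → Summable fun k => Real.exp (-(β * w k)))
    {ρ : H →L[ℂ] H} (h : IsSt e ρ) {R : ℝ} (hR : 0 ≤ R)
    (hr : rE e (th w β) ρ ≤ ENNReal.ofReal R) :
    ρ ∈ KE e w (2 / β * (R + |Real.log (Z w (β / 2)) - Real.log (Z w β)| + 1)) := by
  refine ⟨h, fun F => ?_⟩
  have hβ2 : 0 < β / 2 := half_pos hβ
  have h1 : ∑ k ∈ F, rt e (th w β k) k ρ ≤ R := by
    have h2 : ENNReal.ofReal (∑ k ∈ F, rt e (th w β k) k ρ) ≤ ENNReal.ofReal R := by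
      rw [ENNReal.ofReal_sum_of_nonneg fun k _ => rt_nonneg he h.1 (th_pos (hZ β hβ) k) k]
      exact (ENNReal.sum_le_tsum F).trans hr
    exact (ENNReal.ofReal_le_ofReal_iff hR).1 h2
  have h3 : ∑ k ∈ F, rt e (th w β k) k ρ - ∑ k ∈ F, rt e (th w (β / 2) k) k ρ =
      β / 2 * ∑ k ∈ F, w k * dg e k ρ -
      (Real.log (Z w (β / 2)) - Real.log (Z w β)) * ∑ k ∈ F, dg e k ρ +
      ∑ k ∈ F, th w β k - ∑ k ∈ F, th w (β / 2) k := by
    rw [← Finset.sum_sub_distrib, Finset.mul_sum, Finset.mul_sum, ← Finset.sum_sub_distrib,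
      ← Finset.sum_add_distrib, ← Finset.sum_sub_distrib]
    refine Finset.sum_congr rfl fun k _ => ?_
    simp only [rt, log_th (hZ β hβ), log_th (hZ _ hβ2)]
    ring
  have h4 : 0 ≤ ∑ k ∈ F, rt e (th w (β / 2) k) k ρ :=
    Finset.sum_nonneg fun k _ => rt_nonneg he h.1 (th_pos (hZ _ hβ2) k) k
  have h5 : ∑ k ∈ F, th w (β / 2) k ≤ 1 :=
    sum_le_hasSum F (fun k _ => (th_pos (hZ _ hβ2) k).le) (hasSum_th (hZ _ hβ2))
  have h6 : 0 ≤ ∑ k ∈ F, th w β k := Finset.sum_nonneg fun k _ => (th_pos (hZ β hβ) k).le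
  have h7 := sum_dg_le_one h F
  have h8 : 0 ≤ ∑ k ∈ F, dg e k ρ := Finset.sum_nonneg fun k _ => dg_nonneg h.1 k
  set L := Real.log (Z w (β / 2)) - Real.log (Z w β) with hL
  have h9 : L * ∑ k ∈ F, dg e k ρ ≤ |L| := by
    calc L * ∑ k ∈ F, dg e k ρ ≤ |L| * ∑ k ∈ F, dg e k ρ :=
          mul_le_mul_of_nonneg_right (le_abs_self L) h8
      _ ≤ |L| * 1 := mul_le_mul_of_nonneg_left h7 (abs_nonneg L)
      _ = |L| := mul_one _
  have h10 : β / 2 * ∑ k ∈ F, w k * dg e k ρ ≤ R + |L| + 1 := by linarith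
  rw [div_mul_eq_mul_div, le_div_iff₀ hβ]
  linarith

theorem summable_sg [Nonempty ι] {e : ι → H} (he : Orthonormal ℂ e)
    (hd : Dense (Submodule.span ℂ (range e) : Set H)) {w : ι → ℝ}
    (hw : ∀ k, 0 ≤ w k) (hZ : ∀ β : ℝ, 0 < β → Summable fun k => Real.exp (-(β * w k)))
    {ρ : H →L[ℂ] H} (h : FE e w ρ) : Summable fun k => sg e k ρ := by
  refine summable_of_sum_le (c := en e w ρ + |Real.log (Z w 1)| + 1) (sg_nonneg he hd h.1)
    fun F => ?_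
  have h1 : 0 ≤ ∑ k ∈ F, rt e (th w 1 k) k ρ :=
    Finset.sum_nonneg fun k _ => rt_nonneg he h.1.1 (th_pos (hZ 1 one_pos) k) k
  have h2 : ∑ k ∈ F, rt e (th w 1 k) k ρ = -∑ k ∈ F, sg e k ρ + ∑ k ∈ F, w k * dg e k ρ +
      (Real.log (Z w 1) - 1) * ∑ k ∈ F, dg e k ρ + ∑ k ∈ F, th w 1 k := by
    rw [← Finset.sum_neg_distrib, Finset.mul_sum, ← Finset.sum_add_distrib,
      ← Finset.sum_add_distrib, ← Finset.sum_add_distrib]
    refine Finset.sum_congr rfl fun k _ => ?_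
    simp only [rt, log_th (hZ 1 one_pos)]
    ring
  have h3 : ∑ k ∈ F, w k * dg e k ρ ≤ en e w ρ :=
    h.2.sum_le_tsum F fun k _ => mul_nonneg (hw k) (dg_nonneg h.1.1 k)
  have h4 := sum_dg_le_one h.1 F
  have h5 : 0 ≤ ∑ k ∈ F, dg e k ρ := Finset.sum_nonneg fun k _ => dg_nonneg h.1.1 k
  have h6 : ∑ k ∈ F, th w 1 k ≤ 1 :=
    sum_le_hasSum F (fun k _ => (th_pos (hZ 1 one_pos) k).le) (hasSum_th (hZ 1 one_pos))
  have h7 : Real.log (Z w 1) * ∑ k ∈ F, dg e k ρ ≤ |Real.log (Z w 1)| := by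
    calc Real.log (Z w 1) * ∑ k ∈ F, dg e k ρ ≤ |Real.log (Z w 1)| * ∑ k ∈ F, dg e k ρ :=
          mul_le_mul_of_nonneg_right (le_abs_self _) h5
      _ ≤ |Real.log (Z w 1)| * 1 := mul_le_mul_of_nonneg_left h4 (abs_nonneg _)
      _ = |Real.log (Z w 1)| := mul_one _
  nlinarith

theorem sE_eq [Nonempty ι] {e : ι → H} (he : Orthonormal ℂ e)
    (hd : Dense (Submodule.span ℂ (range e) : Set H)) {w : ι → ℝ}
    (hw : ∀ k, 0 ≤ w k) (hZ : ∀ β : ℝ, 0 < β → Summable fun k => Real.exp (-(β * w k)))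
    {ρ : H →L[ℂ] H} (h : FE e w ρ) : sE e ρ = ENNReal.ofReal (ent e ρ) :=
  (ENNReal.ofReal_tsum_of_nonneg (sg_nonneg he hd h.1) (summable_sg he hd hw hZ h)).symm

theorem hasSum_rt [Nonempty ι] {e : ι → H} (he : Orthonormal ℂ e)
    (hd : Dense (Submodule.span ℂ (range e) : Set H)) {w : ι → ℝ}
    (hw : ∀ k, 0 ≤ w k) (hZ : ∀ β : ℝ, 0 < β → Summable fun k => Real.exp (-(β * w k)))
    {ρ : H →L[ℂ] H} (h : FE e w ρ) {β : ℝ} (hβ : 0 < β) :
    HasSum (fun k => rt e (th w β k) k ρ) (β * en e w ρ - ent e ρ + Real.log (Z w β)) := by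
  have h1 := (summable_sg he hd hw hZ h).hasSum
  have h2 := h.2.hasSum
  have h3 := h.1.hasSum
  have h4 := hasSum_th (hZ β hβ)
  have h5 := ((h1.neg.add (h2.mul_left β)).add (h3.mul_left (Real.log (Z w β) - 1))).add h4
  have h6 : (fun k => rt e (th w β k) k ρ) = fun k =>
      -sg e k ρ + β * (w k * dg e k ρ) + (Real.log (Z w β) - 1) * dg e k ρ + th w β k := by
    funext k
    simp only [rt, log_th (hZ β hβ)]
    ring
  have h7 : β * en e w ρ - ent e ρ + Real.log (Z w β) =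
    -ent e ρ + β * en e w ρ + (Real.log (Z w β) - 1) * 1 + 1 := by ring
  rw [h6, h7]
  exact h5

theorem rE_eq [Nonempty ι] {e : ι → H} (he : Orthonormal ℂ e)
    (hd : Dense (Submodule.span ℂ (range e) : Set H)) {w : ι → ℝ}
    (hw : ∀ k, 0 ≤ w k) (hZ : ∀ β : ℝ, 0 < β → Summable fun k => Real.exp (-(β * w k)))
    {ρ : H →L[ℂ] H} (h : FE e w ρ) {β : ℝ} (hβ : 0 < β) :
    rE e (th w β) ρ = ENNReal.ofReal (β * en e w ρ - ent e ρ + Real.log (Z w β)) := by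
  have h1 := hasSum_rt he hd hw hZ h hβ
  rw [rE, ← ENNReal.ofReal_tsum_of_nonneg (fun k => rt_nonneg he h.1.1 (th_pos (hZ β hβ) k) k)
    h1.summable, h1.tsum_eq]

/-- Gibbs' variational principle: `S ≤ β E + log Z` -/
theorem ent_le [Nonempty ι] {e : ι → H} (he : Orthonormal ℂ e)
    (hd : Dense (Submodule.span ℂ (range e) : Set H)) {w : ι → ℝ}
    (hw : ∀ k, 0 ≤ w k) (hZ : ∀ β : ℝ, 0 < β → Summable fun k => Real.exp (-(β * w k)))
    {ρ : H →L[ℂ] H} (h : FE e w ρ) {β : ℝ} (hβ : 0 < β) :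
    ent e ρ ≤ β * en e w ρ + Real.log (Z w β) := by
  have h1 := (hasSum_rt he hd hw hZ h hβ).nonneg fun k =>
    rt_nonneg he h.1.1 (th_pos (hZ β hβ) k) k
  linarith

theorem KE.fe {e : ι → H} {w : ι → ℝ} (hw : ∀ k, 0 ≤ w k) {E : ℝ} {ρ : H →L[ℂ] H}
    (h : ρ ∈ KE e w E) : FE e w ρ :=
  ⟨h.1, summable_of_sum_le (fun k => mul_nonneg (hw k) (dg_nonneg h.1.1 k)) h.2⟩

theorem KE.mono {e : ι → H} {w : ι → ℝ} {E E' : ℝ} (hE : E ≤ E') : KE e w E ⊆ KE e w E' :=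
  fun _ h => ⟨h.1, fun F => (h.2 F).trans hE⟩

theorem FE.mem_KE {e : ι → H} {w : ι → ℝ} (hw : ∀ k, 0 ≤ w k) {ρ : H →L[ℂ] H} (h : FE e w ρ) :
    ρ ∈ KE e w (en e w ρ) :=
  ⟨h.1, fun F => h.2.sum_le_tsum F fun k _ => mul_nonneg (hw k) (dg_nonneg h.1.1 k)⟩

theorem finite_le {w : ι → ℝ} (hZ : ∀ β : ℝ, 0 < β → Summable fun k => Real.exp (-(β * w k)))
    (N : ℝ) : {k | w k ≤ N}.Finite := by
  have h1 := (hZ 1 one_pos).tendsto_cofinite_zero
  have h2 := h1.eventually (gt_mem_nhds (Real.exp_pos (-N)))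
  rw [Filter.eventually_cofinite] at h2
  refine h2.subset fun k hk => ?_
  simp only [mem_ofPred_eq, not_lt] at hk ⊢
  exact Real.exp_le_exp.2 (by linarith)

variable {H' : Type*} [NormedAddCommGroup H'] [InnerProductSpace ℂ H'] [CompleteSpace H']
  {ι' : Type*}

/-- existence of the minimiser -/
theorem exists_minimizer [Nonempty ι] [Nonempty ι'] {e : ι → H} (he : Orthonormal ℂ e)
    (hd : Dense (Submodule.span ℂ (range e) : Set H)) {w : ι → ℝ} (hw : ∀ k, 0 ≤ w k)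
    (hZ : ∀ β : ℝ, 0 < β → Summable fun k => Real.exp (-(β * w k)))
    {e' : ι' → H'} (he' : Orthonormal ℂ e')
    (hd' : Dense (Submodule.span ℂ (range e') : Set H')) {w' : ι' → ℝ} (hw' : ∀ k, 0 ≤ w' k)
    (hZ' : ∀ β : ℝ, 0 < β → Summable fun k => Real.exp (-(β * w' k)))
    (C : (H →L[ℂ] H) → (H →L[ℂ] H) → (H' →L[ℂ] H'))
    (hC : ∀ E : ℝ, ContinuousOn (fun p : (H →L[ℂ] H) × (H →L[ℂ] H) => C p.1 p.2)
      (KE e w E ×ˢ KE e w E))
    (hCf : ∀ A B, FE e w A → FE e w B → FE e' w' (C A B))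
    {a s₁ s₂ b₁ b₂ : ℝ} (ha : 0 ≤ a) (hs₁ : 0 < s₁) (hs₂ : 0 < s₂) (hb₁ : 0 < b₁) (hb₂ : 0 < b₂)
    (hne : ∃ A, FE e w A) :
    ∃ A B, FE e w A ∧ FE e w B ∧ ∀ A' B', FE e w A' → FE e w B' →
      a * ent e' (C A B) + s₁ * (b₁ * en e w A - ent e A) + s₂ * (b₂ * en e w B - ent e B) ≤
      a * ent e' (C A' B') + s₁ * (b₁ * en e w A' - ent e A') +
        s₂ * (b₂ * en e w B' - ent e B') := by
  -- the functional with values in `[0, ∞]`
  set W : (H →L[ℂ] H) × (H →L[ℂ] H) → ℝ≥0∞ := fun p =>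
    ENNReal.ofReal a * sE e' (C p.1 p.2) + ENNReal.ofReal s₁ * rE e (th w b₁) p.1 +
      ENNReal.ofReal s₂ * rE e (th w b₂) p.2 with hW
  set V : (H →L[ℂ] H) → (H →L[ℂ] H) → ℝ := fun A B =>
    a * ent e' (C A B) + s₁ * (b₁ * en e w A - ent e A) + s₂ * (b₂ * en e w B - ent e B) with hV
  set c : ℝ := s₁ * Real.log (Z w b₁) + s₂ * Real.log (Z w b₂) with hc
  have hWV : ∀ A B, FE e w A → FE e w B → W (A, B) = ENNReal.ofReal (V A B + c) ∧
      0 ≤ V A B + c := by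
    intro A B hA hB
    have h1 : 0 ≤ ent e' (C A B) := tsum_nonneg (sg_nonneg he' hd' (hCf A B hA hB).1)
    have h2 : 0 ≤ b₁ * en e w A - ent e A + Real.log (Z w b₁) :=
      (hasSum_rt he hd hw hZ hA hb₁).nonneg fun k =>
        rt_nonneg he hA.1.1 (th_pos (hZ b₁ hb₁) k) k
    have h3 : 0 ≤ b₂ * en e w B - ent e B + Real.log (Z w b₂) :=
      (hasSum_rt he hd hw hZ hB hb₂).nonneg fun k =>
        rt_nonneg he hB.1.1 (th_pos (hZ b₂ hb₂) k) k
    have h4 : V A B + c = a * ent e' (C A B) +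
        s₁ * (b₁ * en e w A - ent e A + Real.log (Z w b₁)) +
        s₂ * (b₂ * en e w B - ent e B + Real.log (Z w b₂)) := by
      simp only [hV, hc]; ring
    have p1 : 0 ≤ a * ent e' (C A B) := mul_nonneg ha h1
    have p2 := mul_nonneg hs₁.le h2
    have p3 := mul_nonneg hs₂.le h3
    refine ⟨?_, by rw [h4]; positivity⟩
    rw [h4, ENNReal.ofReal_add (add_nonneg p1 p2) p3, ENNReal.ofReal_add p1 p2,
      ENNReal.ofReal_mul ha, ENNReal.ofReal_mul hs₁.le, ENNReal.ofReal_mul hs₂.le]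
    simp only [hW]
    rw [sE_eq he' hd' hw' hZ' (hCf A B hA hB), rE_eq he hd hw hZ hA hb₁,
      rE_eq he hd hw hZ hB hb₂]
  obtain ⟨A₀, hA₀⟩ := hne
  obtain ⟨hW₀, hV₀⟩ := hWV A₀ A₀ hA₀ hA₀
  set R : ℝ := V A₀ A₀ + c with hR
  -- energy bound
  have hbd : ∀ (s b : ℝ), 0 < s → 0 < b → ∃ E, ∀ ρ, IsSt e ρ →
      ENNReal.ofReal s * rE e (th w b) ρ ≤ ENNReal.ofReal R → ρ ∈ KE e w E := by
    intro s b hs hb
    refine ⟨_, fun ρ hρ h => mem_KE_of_rE_le he hb hZ hρ (R := R / s)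
      (div_nonneg hV₀ hs.le) ?_⟩
    rw [ENNReal.ofReal_div_of_pos hs, ENNReal.le_div_iff_mul_le
      (Or.inl (by simpa using hs)) (Or.inl ENNReal.ofReal_ne_top), mul_comm]
    exact h
  obtain ⟨E₁, hE₁⟩ := hbd s₁ b₁ hs₁ hb₁
  obtain ⟨E₂, hE₂⟩ := hbd s₂ b₂ hs₂ hb₂
  set E := max (max E₁ E₂) (en e w A₀) with hE
  have hf := finite_le hZ
  have hK : IsCompact (KE e w E ×ˢ KE e w E) :=
    (isCompact_KE he hd hw hf E).prod (isCompact_KE he hd hw hf E)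
  have hA₀K : A₀ ∈ KE e w E := KE.mono (le_max_right _ _) (hA₀.mem_KE hw)
  have hlsc : LowerSemicontinuousOn W (KE e w E ×ˢ KE e w E) := by
    have l1 : LowerSemicontinuousOn (fun p : (H →L[ℂ] H) × (H →L[ℂ] H) =>
        sE e' (C p.1 p.2)) (KE e w E ×ˢ KE e w E) := by
      refine LowerSemicontinuousOn.comp (g := fun p : (H →L[ℂ] H) × (H →L[ℂ] H) => C p.1 p.2)
        (lsc_sE he' hd') (hC E) ?_
      rintro ⟨A, B⟩ ⟨hA, hB⟩
      exact (hCf A B (KE.fe hw hA) (KE.fe hw hB)).1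
    have l2 : LowerSemicontinuousOn (fun p : (H →L[ℂ] H) × (H →L[ℂ] H) =>
        rE e (th w b₁) p.1) (KE e w E ×ˢ KE e w E) :=
      LowerSemicontinuousOn.comp (g := fun p : (H →L[ℂ] H) × (H →L[ℂ] H) => p.1)
        (lsc_rE he hd _) continuous_fst.continuousOn fun p hp => hp.1.1
    have l3 : LowerSemicontinuousOn (fun p : (H →L[ℂ] H) × (H →L[ℂ] H) =>
        rE e (th w b₂) p.2) (KE e w E ×ˢ KE e w E) :=
      LowerSemicontinuousOn.comp (g := fun p : (H →L[ℂ] H) × (H →L[ℂ] H) => p.2)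
        (lsc_rE he hd _) continuous_snd.continuousOn fun p hp => hp.2.1
    have lm : ∀ (r : ℝ) (f : (H →L[ℂ] H) × (H →L[ℂ] H) → ℝ≥0∞),
        LowerSemicontinuousOn f (KE e w E ×ˢ KE e w E) →
        LowerSemicontinuousOn (fun p => ENNReal.ofReal r * f p) (KE e w E ×ˢ KE e w E) := by
      intro r f h
      have hcont : Continuous fun x : ℝ≥0∞ => ENNReal.ofReal r * x :=
        ENNReal.continuous_const_mul ENNReal.ofReal_ne_top
      exact hcont.comp_lowerSemicontinuousOn h fun x y hxy => mul_le_mul_right hxy _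
    exact ((lm a _ l1).add (lm s₁ _ l2)).add (lm s₂ _ l3)
  obtain ⟨⟨A, B⟩, ⟨hA, hB⟩, hmin⟩ := hlsc.exists_isMinOn
    (⟨(A₀, A₀), hA₀K, hA₀K⟩ : (KE e w E ×ˢ KE e w E).Nonempty) hK
  have hAf := KE.fe hw hA
  have hBf := KE.fe hw hB
  refine ⟨A, B, hAf, hBf, fun A' B' hA' hB' => ?_⟩
  obtain ⟨w1, v1⟩ := hWV A B hAf hBf
  obtain ⟨w2, v2⟩ := hWV A' B' hA' hB'
  have key : W (A, B) ≤ W (A', B') := by
    by_cases hle : W (A', B') ≤ ENNReal.ofReal R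
    · have m1 : A' ∈ KE e w E := by
        refine KE.mono ((le_max_left _ _).trans (le_max_left _ _)) (hE₁ A' hA'.1 ?_)
        exact (le_add_self.trans le_self_add).trans hle
      have m2 : B' ∈ KE e w E := by
        refine KE.mono ((le_max_right _ _).trans (le_max_left _ _)) (hE₂ B' hB'.1 ?_)
        exact le_add_self.trans hle
      exact hmin (mem_prod.2 ⟨m1, m2⟩)
    · have m3 : W (A, B) ≤ W (A₀, A₀) := hmin (mem_prod.2 ⟨hA₀K, hA₀K⟩)
      rw [hW₀] at m3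
      exact m3.trans (not_le.1 hle).le
  rw [w1, w2, ENNReal.ofReal_le_ofReal_iff v2] at key
  have : V A B ≤ V A' B' := by linarith
  exact this

end

end Vale.Agent.P369.H461
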